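import Mathlib.MeasureTheory.Measure.Lebesgue.Complex
import Mathlib.MeasureTheory.Measure.Haar.NormedSpace
import Mathlib.MeasureTheory.Integral.IntervalIntegral.FundThmCalculus
import Mathlib.Analysis.Calculus.ContDiff.Basic
import Mathlib.Analysis.Calculus.Deriv.Mul
import Mathlib.MeasureTheory.Group.LIntegral
import Mathlib.MeasureTheory.Integral.Bochner.Set
import Mathlib.MeasureTheory.Measure.Haar.OfBasis

/-!
# P284, package FL : the `L²` Poincaré inequality on a bounded convex set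
-/

open MeasureTheory Set Filter Topology Metric
open scoped ContDiff ENNReal

noncomputable section

namespace Vale.Agent.P284.H723

variable {E : Type*} [NormedAddCommGroup E] [NormedSpace ℝ E] [MeasurableSpace E] [BorelSpace E]
  [FiniteDimensional ℝ E] {μ : Measure E} [μ.IsAddHaarMeasure]

omit [MeasurableSpace E] [BorelSpace E] [FiniteDimensional ℝ E] in
/-- the increment of `G` along a segment -/
theorem increment_sq_le {G : E → ℂ} (hG : ContDiff ℝ 1 G) (x v : E) :
    ‖G (x + v) - G x‖ ^ 2 ≤ ‖v‖ ^ 2 * ∫ s in (0 : ℝ)..1, ‖fderiv ℝ G (x + s • v)‖ ^ 2 := by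
  have hc : Continuous fun s : ℝ => fderiv ℝ G (x + s • v) :=
    (hG.continuous_fderiv one_ne_zero).comp (by fun_prop)
  have hderiv : ∀ s ∈ uIcc (0 : ℝ) 1, HasDerivAt (fun s : ℝ => G (x + s • v))
      (fderiv ℝ G (x + s • v) v) s := by
    intro s _
    have h1 : HasFDerivAt G (fderiv ℝ G (x + s • v)) (x + s • v) :=
      (hG.differentiable one_ne_zero _).hasFDerivAt
    have h2 : HasDerivAt (fun s : ℝ => x + s • v) v s := by
      simpa using ((hasDerivAt_id s).smul_const v).const_add x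
    exact h1.comp_hasDerivAt s h2
  have hcv : Continuous fun s : ℝ => fderiv ℝ G (x + s • v) v := hc.clm_apply continuous_const
  have h1 := intervalIntegral.integral_eq_sub_of_hasDerivAt hderiv
    (hcv.intervalIntegrable 0 1)
  simp only [one_smul, zero_smul, add_zero] at h1
  rw [← h1]
  set f : ℝ → ℝ := fun s => ‖fderiv ℝ G (x + s • v)‖ with hf
  have hfc : Continuous f := hc.norm
  set c : ℝ := ∫ s in (0 : ℝ)..1, f s with hcdef
  have hc0 : 0 ≤ c := intervalIntegral.integral_nonneg zero_le_one fun s _ => norm_nonneg _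
  have h2 : ‖∫ s in (0 : ℝ)..1, fderiv ℝ G (x + s • v) v‖ ≤ ‖v‖ * c := by
    refine (intervalIntegral.norm_integral_le_integral_norm zero_le_one).trans ?_
    rw [hcdef, ← intervalIntegral.integral_const_mul]
    refine intervalIntegral.integral_mono_on zero_le_one (hcv.norm.intervalIntegrable 0 1)
      ((hfc.const_mul _).intervalIntegrable 0 1) fun s _ => ?_
    rw [mul_comm]
    exact ContinuousLinearMap.le_opNorm _ _
  have h3 : c ^ 2 ≤ ∫ s in (0 : ℝ)..1, f s ^ 2 := by
    have h4 : 0 ≤ ∫ s in (0 : ℝ)..1, (f s - c) ^ 2 :=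
      intervalIntegral.integral_nonneg zero_le_one fun s _ => sq_nonneg _
    have h5 : ∫ s in (0 : ℝ)..1, (f s - c) ^ 2 =
        (∫ s in (0 : ℝ)..1, f s ^ 2) - 2 * c * (∫ s in (0 : ℝ)..1, f s) + c ^ 2 := by
      have : ∀ s, (f s - c) ^ 2 = f s ^ 2 - 2 * c * f s + c ^ 2 := fun s => by ring
      simp only [this]
      have i1 : IntervalIntegrable (fun s => f s ^ 2) volume 0 1 :=
        (hfc.pow 2).intervalIntegrable 0 1
      have i2 : IntervalIntegrable (fun s => 2 * c * f s) volume 0 1 :=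
        (hfc.const_mul _).intervalIntegrable 0 1
      have i3 : IntervalIntegrable (fun _ => c ^ 2) volume (0 : ℝ) 1 :=
        continuous_const.intervalIntegrable 0 1
      rw [intervalIntegral.integral_add (i1.sub i2) i3, intervalIntegral.integral_sub i1 i2,
        intervalIntegral.integral_const_mul]
      simp
    rw [h5, ← hcdef] at h4
    nlinarith
  calc ‖∫ s in (0 : ℝ)..1, fderiv ℝ G (x + s • v) v‖ ^ 2 ≤ (‖v‖ * c) ^ 2 :=
        pow_le_pow_left₀ (norm_nonneg _) h2 2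
    _ = ‖v‖ ^ 2 * c ^ 2 := by ring
    _ ≤ _ := mul_le_mul_of_nonneg_left h3 (by positivity)

omit [MeasurableSpace E] [BorelSpace E] [FiniteDimensional ℝ E] in
theorem increment_sq_le' {G : E → ℂ} (hG : ContDiff ℝ 1 G) (x v : E) :
    ‖G (x + v) - G x‖ₑ ^ 2 ≤
      ‖v‖ₑ ^ 2 * ∫⁻ s in Ioc (0 : ℝ) 1, ‖fderiv ℝ G (x + s • v)‖ₑ ^ 2 := by
  have hc : Continuous fun s : ℝ => fderiv ℝ G (x + s • v) :=
    (hG.continuous_fderiv one_ne_zero).comp (by fun_prop)
  have h1 := increment_sq_le hG x v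
  have h2 : ∫⁻ s in Ioc (0 : ℝ) 1, ‖fderiv ℝ G (x + s • v)‖ₑ ^ 2 =
      ENNReal.ofReal (∫ s in (0 : ℝ)..1, ‖fderiv ℝ G (x + s • v)‖ ^ 2) := by
    rw [intervalIntegral.integral_of_le zero_le_one, ofReal_integral_eq_lintegral_ofReal]
    · refine lintegral_congr fun s => ?_
      rw [ENNReal.ofReal_pow (norm_nonneg _), ofReal_norm]
    · exact (hc.norm.pow 2).integrableOn_Ioc
    · exact ae_of_all _ fun s => by positivity
  rw [h2, ← ofReal_norm, ← ofReal_norm, ← ENNReal.ofReal_pow (norm_nonneg _),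
    ← ENNReal.ofReal_pow (norm_nonneg _), ← ENNReal.ofReal_mul (by positivity)]
  exact ENNReal.ofReal_le_ofReal h1

/-- **Poincaré inequality** (double integral form) -/
theorem poincare_double {G : E → ℂ} (hG : ContDiff ℝ 1 G) {D : Set E} (hD : MeasurableSet D)
    (hDc : Convex ℝ D) {r : ℝ} (hr : ∀ x ∈ D, ∀ y ∈ D, ‖y - x‖ ≤ r) :
    ∫⁻ x in D, ∫⁻ y in D, ‖G y - G x‖ₑ ^ 2 ∂μ ∂μ ≤
      ENNReal.ofReal r ^ 2 * μ (closedBall 0 r) * ∫⁻ z in D, ‖fderiv ℝ G z‖ₑ ^ 2 ∂μ := by
  classical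
  set F : E → ℝ≥0∞ := D.indicator fun z => ‖fderiv ℝ G z‖ₑ ^ 2 with hF
  have hFm : Measurable F :=
    (((hG.continuous_fderiv one_ne_zero).enorm.measurable).pow_const 2).indicator hD
  have hFm3 : Measurable fun p : (E × E) × ℝ => F (p.1.1 + p.2 • p.1.2) :=
    hFm.comp (by fun_prop)
  have hFm2 : Measurable fun p : E × E => ∫⁻ s in Ioc (0 : ℝ) 1, F (p.1 + s • p.2) :=
    hFm3.lintegral_prod_right'
  set B : Set E := closedBall 0 r with hB
  -- step 1
  have h1 : ∫⁻ x in D, ∫⁻ y in D, ‖G y - G x‖ₑ ^ 2 ∂μ ∂μ ≤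
      ∫⁻ x, ∫⁻ v in B, ENNReal.ofReal r ^ 2 * (∫⁻ s in Ioc (0 : ℝ) 1, F (x + s • v)) ∂μ ∂μ := by
    rw [← lintegral_indicator hD]
    refine lintegral_mono fun x => ?_
    by_cases hx : x ∈ D
    · rw [indicator_of_mem hx, ← lintegral_indicator hD,
        ← lintegral_indicator (measurableSet_closedBall : MeasurableSet B),
        ← lintegral_add_left_eq_self _ x]
      refine lintegral_mono fun v => ?_
      by_cases hv : x + v ∈ D
      · have hvr : ‖v‖ ≤ r := by simpa using hr x hx _ hv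
        have hvB : v ∈ B := by simpa [hB] using hvr
        rw [indicator_of_mem hv, indicator_of_mem hvB]
        refine (increment_sq_le' hG x v).trans ?_
        refine mul_le_mul' ?_ ?_
        · gcongr
          rw [← ofReal_norm]
          exact ENNReal.ofReal_le_ofReal hvr
        · refine setLIntegral_mono' measurableSet_Ioc fun s hs => ?_
          have hmem : x + s • v ∈ D := by
            have := hDc.add_smul_sub_mem hx hv ⟨hs.1.le, hs.2⟩
            simpa using this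
          rw [hF, indicator_of_mem hmem]
      · rw [indicator_of_notMem hv]
        exact zero_le
    · rw [indicator_of_notMem hx]
      exact zero_le
  refine h1.trans ?_
  rw [lintegral_lintegral_swap]
  · have h2 : ∀ v, ∫⁻ x, ENNReal.ofReal r ^ 2 * (∫⁻ s in Ioc (0 : ℝ) 1, F (x + s • v)) ∂μ =
        ENNReal.ofReal r ^ 2 * ∫⁻ z in D, ‖fderiv ℝ G z‖ₑ ^ 2 ∂μ := by
      intro v
      have hm : Measurable fun x : E => ∫⁻ s in Ioc (0 : ℝ) 1, F (x + s • v) :=
        hFm2.comp (by fun_prop : Measurable fun x : E => (x, v))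
      rw [lintegral_const_mul _ hm]
      congr 1
      rw [lintegral_lintegral_swap]
      · have h3 : ∀ s : ℝ, ∫⁻ x, F (x + s • v) ∂μ = ∫⁻ z in D, ‖fderiv ℝ G z‖ₑ ^ 2 ∂μ := by
          intro s
          rw [lintegral_add_right_eq_self F (s • v), hF, lintegral_indicator hD]
        simp only [h3]
        simp
      · exact (hFm3.comp (by fun_prop : Measurable fun p : E × ℝ => ((p.1, v), p.2))).aemeasurable
    simp only [h2]
    rw [lintegral_const]
    simp only [MeasurableSet.univ, Measure.restrict_apply, univ_inter]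
    rw [mul_assoc, mul_assoc, mul_comm (μ B)]
  · refine Measurable.aemeasurable ?_
    exact measurable_const.mul hFm2

/-- `(∫ f)² ≤ μ(D) ∫ f²` -/
theorem sq_integral_le {α : Type*} [MeasurableSpace α] {ν : Measure α} [IsFiniteMeasure ν]
    {f : α → ℝ} (hf : Integrable f ν) (hf2 : Integrable (fun x => f x ^ 2) ν) :
    (∫ x, f x ∂ν) ^ 2 ≤ ν.real univ * ∫ x, f x ^ 2 ∂ν := by
  set V := ν.real univ with hV
  set c := ∫ x, f x ∂ν with hc
  have hV0 : 0 ≤ V := measureReal_nonneg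
  rcases hV0.eq_or_lt with h | h
  · have h0 : ν = 0 := by
      rw [hV] at h
      exact Measure.measure_univ_eq_zero.1 ((measureReal_eq_zero_iff).1 h.symm)
    have : c = 0 := by rw [hc, h0]; simp
    rw [this, ← h]; simp
  · have h1 : 0 ≤ ∫ x, (V * f x - c) ^ 2 ∂ν := integral_nonneg fun x => sq_nonneg _
    have h2 : ∫ x, (V * f x - c) ^ 2 ∂ν = V ^ 2 * (∫ x, f x ^ 2 ∂ν) - 2 * V * c * c + c ^ 2 * V := by
      have : ∀ x, (V * f x - c) ^ 2 = V ^ 2 * f x ^ 2 - 2 * V * c * f x + c ^ 2 := fun x => by ring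
      simp only [this]
      have j1 : Integrable (fun x => V ^ 2 * f x ^ 2) ν := hf2.const_mul _
      have j2 : Integrable (fun x => 2 * V * c * f x) ν := hf.const_mul _
      have j3 : Integrable (fun x => V ^ 2 * f x ^ 2 - 2 * V * c * f x) ν := j1.sub j2
      rw [integral_add j3 (integrable_const _),
        integral_sub j1 j2, integral_const_mul, integral_const_mul,
        integral_const, ← hc, ← hV, smul_eq_mul]
      ring
    rw [h2] at h1
    have h3 : 0 ≤ V * (V * (∫ x, f x ^ 2 ∂ν) - c ^ 2) := by nlinarith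
    nlinarith [nonneg_of_mul_nonneg_right h3 h]

/-- **Poincaré inequality** on a bounded convex set -/
theorem poincare_conv {G : E → ℂ} (hG : ContDiff ℝ 1 G) {D : Set E} (hD : MeasurableSet D)
    (hDc : Convex ℝ D) {r : ℝ} (hr : ∀ x ∈ D, ∀ y ∈ D, ‖y - x‖ ≤ r)
    (hb : Bornology.IsBounded D) (hpos : 0 < μ.real D) :
    μ.real D * ∫ x in D, ‖G x‖ ^ 2 ∂μ ≤ 2 * ‖∫ x in D, G x ∂μ‖ ^ 2 +
      2 * (r ^ 2 * μ.real (closedBall 0 r)) * ∫ x in D, ‖fderiv ℝ G x‖ ^ 2 ∂μ := by
  have hr0 : 0 ≤ r := by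
    have hne : D.Nonempty := by
      rw [nonempty_iff_ne_empty]
      rintro rfl
      simp at hpos
    obtain ⟨x, hx⟩ := hne
    simpa using hr x hx x hx
  obtain ⟨R, hR⟩ := hb.subset_closedBall 0
  have hint : ∀ {f : E → ℝ}, Continuous f → IntegrableOn f D μ := fun hf =>
    (hf.continuousOn.integrableOn_compact (isCompact_closedBall (0 : E) R)).mono_set hR
  have hintC : ∀ {f : E → ℂ}, Continuous f → IntegrableOn f D μ := fun hf =>
    (hf.continuousOn.integrableOn_compact (isCompact_closedBall (0 : E) R)).mono_set hR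
  have hfin : μ D < ⊤ := lt_of_le_of_lt (measure_mono hR) measure_closedBall_lt_top
  have : IsFiniteMeasure (μ.restrict D) := ⟨by simpa using hfin⟩
  have hGc := hG.continuous
  have hGf := hG.continuous_fderiv one_ne_zero
  set V := μ.real D with hV
  -- pointwise inequality
  have h1 : ∀ x, V ^ 2 * ‖G x‖ ^ 2 ≤ 2 * ‖∫ y in D, G y ∂μ‖ ^ 2 +
      2 * V * ∫ y in D, ‖G y - G x‖ ^ 2 ∂μ := by
    intro x
    have e1 : (V : ℂ) * G x = (∫ y in D, G y ∂μ) - ∫ y in D, (G y - G x) ∂μ := by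
      rw [integral_sub (hintC hGc) (integrable_const _), setIntegral_const]
      simp [hV]
    have e2 : ‖∫ y in D, (G y - G x) ∂μ‖ ^ 2 ≤ V * ∫ y in D, ‖G y - G x‖ ^ 2 ∂μ := by
      have h3 := sq_integral_le (ν := μ.restrict D) (f := fun y => ‖G y - G x‖)
        (hint (hGc.sub continuous_const).norm) (hint ((hGc.sub continuous_const).norm.pow 2))
      have h4 : (μ.restrict D).real univ = V := by simp [hV]
      rw [h4] at h3
      refine le_trans ?_ h3
      exact pow_le_pow_left₀ (norm_nonneg _) (norm_integral_le_integral_norm _) 2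
    have e3 : V * ‖G x‖ ≤ ‖∫ y in D, G y ∂μ‖ + ‖∫ y in D, (G y - G x) ∂μ‖ := by
      have : V * ‖G x‖ = ‖(V : ℂ) * G x‖ := by
        rw [norm_mul, Complex.norm_real, Real.norm_of_nonneg hpos.le]
      rw [this, e1]
      exact norm_sub_le _ _
    have e4 : (V * ‖G x‖) ^ 2 ≤
        (‖∫ y in D, G y ∂μ‖ + ‖∫ y in D, (G y - G x) ∂μ‖) ^ 2 :=
      pow_le_pow_left₀ (by positivity) e3 2
    nlinarith [sq_nonneg (‖∫ y in D, G y ∂μ‖ - ‖∫ y in D, (G y - G x) ∂μ‖)]
  -- convert
  have c1 : ∀ x, ENNReal.ofReal (V ^ 2) * ‖G x‖ₑ ^ 2 ≤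
      ENNReal.ofReal (2 * ‖∫ y in D, G y ∂μ‖ ^ 2) +
      ENNReal.ofReal (2 * V) * ∫⁻ y in D, ‖G y - G x‖ₑ ^ 2 ∂μ := by
    intro x
    have e1 : ∫⁻ y in D, ‖G y - G x‖ₑ ^ 2 ∂μ = ENNReal.ofReal (∫ y in D, ‖G y - G x‖ ^ 2 ∂μ) := by
      rw [ofReal_integral_eq_lintegral_ofReal]
      · refine lintegral_congr fun s => ?_
        rw [ENNReal.ofReal_pow (norm_nonneg _), ofReal_norm]
      · exact hint ((hGc.sub continuous_const).norm.pow 2)
      · exact ae_of_all _ fun s => by positivity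
    rw [e1, ← ENNReal.ofReal_mul (by positivity), ← ofReal_norm,
      ← ENNReal.ofReal_pow (norm_nonneg _), ← ENNReal.ofReal_mul (by positivity),
      ← ENNReal.ofReal_add (by positivity) (by positivity)]
    exact ENNReal.ofReal_le_ofReal (h1 x)
  have c2 : ENNReal.ofReal (V ^ 2) * ∫⁻ x in D, ‖G x‖ₑ ^ 2 ∂μ ≤
      ENNReal.ofReal (2 * ‖∫ y in D, G y ∂μ‖ ^ 2) * μ D + ENNReal.ofReal (2 * V) *
        (ENNReal.ofReal r ^ 2 * μ (closedBall 0 r) * ∫⁻ z in D, ‖fderiv ℝ G z‖ₑ ^ 2 ∂μ) := by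
    rw [← lintegral_const_mul _ ((hGc.enorm.measurable).pow_const 2)]
    refine (lintegral_mono c1).trans ?_
    rw [lintegral_add_left measurable_const, lintegral_const]
    simp only [MeasurableSet.univ, Measure.restrict_apply, univ_inter]
    gcongr
    rw [lintegral_const_mul' _ _ ENNReal.ofReal_ne_top]
    gcongr
    exact poincare_double hG hD hDc hr
  have e5 : ∫⁻ x in D, ‖G x‖ₑ ^ 2 ∂μ = ENNReal.ofReal (∫ x in D, ‖G x‖ ^ 2 ∂μ) := by
    rw [ofReal_integral_eq_lintegral_ofReal]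
    · refine lintegral_congr fun s => ?_
      rw [ENNReal.ofReal_pow (norm_nonneg _), ofReal_norm]
    · exact hint (hGc.norm.pow 2)
    · exact ae_of_all _ fun s => by positivity
  have e6 : ∫⁻ x in D, ‖fderiv ℝ G x‖ₑ ^ 2 ∂μ =
      ENNReal.ofReal (∫ x in D, ‖fderiv ℝ G x‖ ^ 2 ∂μ) := by
    rw [ofReal_integral_eq_lintegral_ofReal]
    · refine lintegral_congr fun s => ?_
      rw [ENNReal.ofReal_pow (norm_nonneg _), ofReal_norm]
    · exact hint (hGf.norm.pow 2)
    · exact ae_of_all _ fun s => by positivity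
  have e7 : μ D = ENNReal.ofReal V := by
    rw [hV, ofReal_measureReal hfin.ne]
  have e8 : μ (closedBall (0 : E) r) = ENNReal.ofReal (μ.real (closedBall (0 : E) r)) :=
    (ofReal_measureReal measure_closedBall_lt_top.ne).symm
  have i1 : 0 ≤ ∫ x in D, ‖G x‖ ^ 2 ∂μ := integral_nonneg fun x => by positivity
  have i2 : 0 ≤ ∫ x in D, ‖fderiv ℝ G x‖ ^ 2 ∂μ := integral_nonneg fun x => by positivity
  have i3 : 0 ≤ μ.real (closedBall (0 : E) r) := measureReal_nonneg
  rw [e5, e6, e7, e8, ← ENNReal.ofReal_pow hr0, ← ENNReal.ofReal_mul (by positivity),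
    ← ENNReal.ofReal_mul (by positivity), ← ENNReal.ofReal_mul (by positivity),
    ← ENNReal.ofReal_mul (by positivity), ← ENNReal.ofReal_mul (by positivity),
    ← ENNReal.ofReal_add (by positivity) (by positivity)] at c2
  have c3 := (ENNReal.ofReal_le_ofReal_iff (by positivity)).1 c2
  have c4 : V * (V * ∫ x in D, ‖G x‖ ^ 2 ∂μ) ≤ V * (2 * ‖∫ x in D, G x ∂μ‖ ^ 2 +
      2 * (r ^ 2 * μ.real (closedBall 0 r)) * ∫ x in D, ‖fderiv ℝ G x‖ ^ 2 ∂μ) := by
    nlinarith [c3]
  exact le_of_mul_le_mul_left c4 hpos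

end Vale.Agent.P284.H723
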